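import Vale.Agent.Snaky.Far

/-!
After Maker opens at the origin, every Breaker reply outside twelve cells near the origin loses.
-/

namespace Vale.Agent.Results.P062.FarReplies

open Vale.Agent.Snaky

/-- If Maker claims `(0,0)` and Breaker replies with a cell `b` other than `(±1,0)`, `(0,±1)`,
`(±1,±1)`, `(±2,0)`, `(0,±2)`, then Maker, to move, can force a copy of Snaky within `12` further
moves. -/
theorem result (b : ℤ × ℤ) (hb : b ≠ (0, 0))
    (hnear : b ∉ ({(1, 0), (-1, 0), (0, 1), (0, -1), (1, 1), (1, -1), (-1, 1), (-1, -1),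
      (2, 0), (-2, 0), (0, 2), (0, -2)} : Finset (ℤ × ℤ))) :
    ForcedIn 12 {((0 : ℤ), (0 : ℤ))} {b} := by
  apply far_replies
  intro h
  apply hnear
  simp only [nearCells, Finset.mem_insert, Finset.mem_singleton] at h ⊢
  tauto

end Vale.Agent.Results.P062.FarReplies
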