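import Vale.Agent.Snaky.Reduce4

/-!
The line left open in the Snaky game is followed for two more rounds: after Maker `(0,0)`, Breaker
`(1,0)`, Maker `(0,1)`, Breaker `(0,2)`, Maker `(0,-2)`, Breaker `(0,-1)`, Maker `(-1,-2)`, every
Breaker reply except `(-2,-2)` loses; after that reply and Maker `(2,-2)`, every Breaker reply except
`(1,-2)` loses; and the whole game reduces to the resulting position.
-/

namespace Vale.Agent.Results.P062.OneLineDeep

open Vale.Agent.Snaky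

/-- First part: if Maker holds `(0,0), (0,1), (0,-2), (-1,-2)` and Breaker holds
`(1,0), (0,2), (0,-1)` and a further cell `r ≠ (-2,-2)`, then Maker, to move, can force a copy of
Snaky within `13` further moves.
Second part: if Maker holds `(0,0), (0,1), (0,-2), (-1,-2), (2,-2)` and Breaker holds
`(1,0), (0,2), (0,-1), (-2,-2)` and a further cell `r ≠ (1,-2)`, then Maker, to move, can force a
copy within `11` further moves.
Third part: if Maker, to move, holding `(0,0), (0,1), (0,-2), (-1,-2), (2,-2)` against Breaker holding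
`(1,0), (0,2), (0,-1), (-2,-2), (1,-2)`, can force a copy within `K ≥ 12` moves, then Maker has a
strategy on the empty board that wins within `K + 5` turns against every legal play of Breaker. -/
theorem result :
    (∀ r : ℤ × ℤ, r ≠ ((-2 : ℤ), (-2 : ℤ)) →
      ForcedIn 13 {((0 : ℤ), (0 : ℤ)), ((0 : ℤ), (1 : ℤ)), ((0 : ℤ), (-2 : ℤ)), ((-1 : ℤ), (-2 : ℤ))}
        {((1 : ℤ), (0 : ℤ)), ((0 : ℤ), (2 : ℤ)), ((0 : ℤ), (-1 : ℤ)), r}) ∧
    (∀ r : ℤ × ℤ, r ≠ ((1 : ℤ), (-2 : ℤ)) →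
      ForcedIn 11 {((0 : ℤ), (0 : ℤ)), ((0 : ℤ), (1 : ℤ)), ((0 : ℤ), (-2 : ℤ)), ((-1 : ℤ), (-2 : ℤ)),
          ((2 : ℤ), (-2 : ℤ))}
        {((1 : ℤ), (0 : ℤ)), ((0 : ℤ), (2 : ℤ)), ((0 : ℤ), (-1 : ℤ)), ((-2 : ℤ), (-2 : ℤ)), r}) ∧
    (∀ K : ℕ, 12 ≤ K →
      ForcedIn K {((0 : ℤ), (0 : ℤ)), ((0 : ℤ), (1 : ℤ)), ((0 : ℤ), (-2 : ℤ)), ((-1 : ℤ), (-2 : ℤ)),
          ((2 : ℤ), (-2 : ℤ))}
        {((1 : ℤ), (0 : ℤ)), ((0 : ℤ), (2 : ℤ)), ((0 : ℤ), (-1 : ℤ)), ((-2 : ℤ), (-2 : ℤ)),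
          ((1 : ℤ), (-2 : ℤ))} →
      ∃ σ : List (ℤ × ℤ) → ℤ × ℤ, WinsWithin σ (K + 5)) := by
  refine ⟨fun r hr => line3_replies r hr, fun r hr => line4_replies r hr, ?_⟩
  intro K hK h
  exact strategy_of_forced (forced_root_deep5 hK h)

end Vale.Agent.Results.P062.OneLineDeep
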