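import Vale.Agent.Snaky.Far3
import Vale.Agent.Snaky.Line1
import Vale.Agent.Snaky.Line2

/-!
The Snaky game with Maker opening at the origin: all of Breaker's first replies not orthogonally
adjacent to the origin lose; in the line `(1,0)`, `(0,1)` every second Breaker move except `(0,2)`
loses; and after `(0,2)`, `(0,-2)` every third Breaker move except `(0,-1)` loses.
-/

namespace Vale.Agent.Results.P062.OneLineLeft

open Vale.Agent.Snaky

/-- First part: if Maker holds `(0,0)` and Breaker holds `b` with `|b.1| + |b.2| ≥ 2`, then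
Maker, to move, can force a copy of Snaky within `14` further moves.
Second part: if Maker holds `(0,0), (0,1)` and Breaker holds `(1,0)` and a further cell `r ≠ (0,2)`,
then Maker, to move, can force a copy of Snaky within `13` further moves.
Third part: if Maker holds `(0,0), (0,1), (0,-2)` and Breaker holds `(1,0), (0,2)` and a further
cell `r ≠ (0,-1)`, then Maker, to move, can force a copy of Snaky within `13` further moves. -/
theorem result :
    (∀ b : ℤ × ℤ, 2 ≤ |b.1| + |b.2| → ForcedIn 14 {((0 : ℤ), (0 : ℤ))} {b}) ∧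
    (∀ r : ℤ × ℤ, r ≠ ((0 : ℤ), (2 : ℤ)) →
      ForcedIn 13 {((0 : ℤ), (0 : ℤ)), ((0 : ℤ), (1 : ℤ))} {((1 : ℤ), (0 : ℤ)), r}) ∧
    (∀ r : ℤ × ℤ, r ≠ ((0 : ℤ), (-1 : ℤ)) →
      ForcedIn 13 {((0 : ℤ), (0 : ℤ)), ((0 : ℤ), (1 : ℤ)), ((0 : ℤ), (-2 : ℤ))}
        {((1 : ℤ), (0 : ℤ)), ((0 : ℤ), (2 : ℤ)), r}) := by
  refine ⟨?_, ?_, ?_⟩
  · intro b hb
    apply far3_replies
    intro h
    simp only [nearCells3, Finset.mem_insert, Finset.mem_singleton] at h
    rcases h with rfl | rfl | rfl | rfl <;> norm_num at hb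
  · intro r hr
    exact line1_replies r hr
  · intro r hr
    exact line2_replies r hr

end Vale.Agent.Results.P062.OneLineLeft
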