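import Vale.Agent.Snaky.Reduce

/-!
The unhandicapped Snaky game is reduced to a single explicit position: if Maker, to move, can force
a copy from that position, then Maker wins the game on the empty board.
-/

namespace Vale.Agent.Results.P062.OneLineReduction

open Vale.Agent.Snaky

/-- If Maker, to move, holding `(0,0), (0,1), (0,-2)` against Breaker holding
`(1,0), (0,2), (0,-1)`, can force a copy of Snaky within `K ≥ 13` moves, then Maker has a strategy
on the empty board that wins within `K + 3` turns against every legal play of Breaker. -/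
theorem result (K : ℕ) (hK : 13 ≤ K)
    (h : ForcedIn K {((0 : ℤ), (0 : ℤ)), ((0 : ℤ), (1 : ℤ)), ((0 : ℤ), (-2 : ℤ))}
      {((1 : ℤ), (0 : ℤ)), ((0 : ℤ), (2 : ℤ)), ((0 : ℤ), (-1 : ℤ))}) :
    ∃ σ : List (ℤ × ℤ) → ℤ × ℤ, WinsWithin σ (K + 3) :=
  strategy_of_forced (forced_root hK h)

end Vale.Agent.Results.P062.OneLineReduction
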