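import Vale.Agent.Snaky.Far3

/-!
After Maker opens at the origin, every Breaker reply other than the four orthogonal neighbours
of the origin loses.
-/

namespace Vale.Agent.Results.P062.ReplyNotAdjacent

open Vale.Agent.Snaky

/-- If Maker claims `(0,0)` and Breaker replies with a cell `b` other than `(0,0)` and its four
orthogonal neighbours, then Maker, to move, can force a copy of Snaky within `14` further moves. -/
theorem result (b : ℤ × ℤ) (hb : 2 ≤ |b.1| + |b.2|) :
    ForcedIn 14 {((0 : ℤ), (0 : ℤ))} {b} := by
  apply far3_replies
  intro h
  simp only [nearCells3, Finset.mem_insert, Finset.mem_singleton] at h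
  rcases h with rfl | rfl | rfl | rfl <;> norm_num at hb

end Vale.Agent.Results.P062.ReplyNotAdjacent
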